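import Mathlib
import Vale.Agent.H58.Geod.LeftInv

/-!
# P216: infinitely many simple closed geodesics for every left-invariant metric on the three-sphere

Hand-in.  The three-sphere is the group of unit quaternions.  A quadratic form `Q` on the
quaternions, positive on the non-zero imaginary quaternions (the tangent space at `1`), gives the
left-invariant Riemannian metric `g_q (q * ξ) = Q ξ` (`ξ` imaginary); as a field of forms it is the
constant field `fun _ => Q`.  The statement-level definitions `len` (length of a curve) and
`IsGeod` (constant speed and locally length-minimising) are in `Vale/Agent/H58/Geod/Defs.lean`;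
the proof is `Vale.Agent.H58.Geod.left_invariant`.
-/

namespace Vale.Agent.Results.P216.A_LeftInvariantS3

open Vale.Agent.H58.Geod

/-- Every left-invariant Riemannian metric on the three-sphere (unit quaternions) has infinitely
many closed geodesics `c k`, each `2π`-periodic and injective on a period (so simple and prime),
with pairwise different images. -/
theorem result (Q : QuadraticForm ℝ (Quaternion ℝ))
    (hQ : ∀ ξ : Quaternion ℝ, ξ.re = 0 → ξ ≠ 0 → 0 < Q ξ) :
    ∃ c : ℕ → ℝ → Quaternion ℝ, (∀ k, IsGeod (fun _ => Q) (c k)) ∧
      (∀ k, Function.Periodic (c k) (2 * Real.pi)) ∧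
      (∀ k, Set.InjOn (c k) (Set.Ico 0 (2 * Real.pi))) ∧
      ∀ k l, k ≠ l → Set.range (c k) ≠ Set.range (c l) :=
  left_invariant Q hQ

end Vale.Agent.Results.P216.A_LeftInvariantS3
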