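import Mathlib
import Vale.Agent.H58.Geod.Main

/-!
# P216: infinitely many simple closed geodesics for a family of metrics on the three-sphere

Hand-in.  The three-sphere is the unit sphere of the quaternions.  A smooth Riemannian metric on it
is given by a smooth field `Q` of quadratic forms through `g_q (q * ξ) = Q q ξ` (`ξ` an imaginary
quaternion; the tangent space at `q` is `q * ξ`).  The statement-level definitions `len` (length of
a curve) and `IsGeod` (constant speed and locally length-minimising) are in
`Vale/Agent/H58/Geod/Defs.lean`; the proof is `Vale.Agent.H58.Geod.hopf_family`.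
-/

namespace Vale.Agent.Results.P216.B_HopfFamilyS3

open Vale.Agent.H58.Geod

/-- Let `g` be a smooth Riemannian metric on the three-sphere (unit quaternions), written
`g_q (q * ξ) = Q q ξ` for imaginary `ξ`.  Assume that for some `lam > 0` and some imaginary unit
quaternion `X`, `g_q (q * ξ) ≥ lam * ‖ξ‖ ^ 2` for all unit `q` and imaginary `ξ` (the metric
dominates `lam` times the round metric), with equality `g_q (q * X) = lam` along the Hopf field
`q ↦ q * X`.  Then there are infinitely many closed geodesics `c k`, each `2π`-periodic and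
injective on a period (so simple and prime), with pairwise different images. -/
theorem result (Q : Quaternion ℝ → QuadraticForm ℝ (Quaternion ℝ))
    (hsm : ContDiff ℝ (⊤ : ℕ∞) (fun p : Quaternion ℝ × Quaternion ℝ => Q p.1 p.2))
    (X : Quaternion ℝ) (hX0 : X.re = 0) (hX1 : ‖X‖ = 1) (lam : ℝ) (hlam : 0 < lam)
    (hmin : ∀ q ξ : Quaternion ℝ, ‖q‖ = 1 → ξ.re = 0 → lam * ‖ξ‖ ^ 2 ≤ Q q ξ)
    (heq : ∀ q : Quaternion ℝ, ‖q‖ = 1 → Q q X = lam) :
    ∃ c : ℕ → ℝ → Quaternion ℝ, (∀ k, IsGeod Q (c k)) ∧
      (∀ k, Function.Periodic (c k) (2 * Real.pi)) ∧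
      (∀ k, Set.InjOn (c k) (Set.Ico 0 (2 * Real.pi))) ∧
      ∀ k l, k ≠ l → Set.range (c k) ≠ Set.range (c l) :=
  hopf_family Q hsm X hX0 hX1 lam hlam hmin heq

end Vale.Agent.Results.P216.B_HopfFamilyS3
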