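import Mathlib
import Vale.Agent.H58.Sph.Main

/-!
# P216: infinitely many simple closed geodesics for a family of metrics on every sphere

Hand-in.  `E` is a finite-dimensional real inner product space of dimension `n + 1 ≥ 3`; its unit
sphere is the round `n`-sphere, `n ≥ 2`, and the tangent space at `x` is the set of `v` orthogonal
to `x`.  A smooth Riemannian metric on the sphere is given by a smooth field `Q` of quadratic forms
through `g_x (v, v) = Q x v` for tangent `v`.  The statement-level definitions `lenS` (length of a
curve) and `IsGeodS` (constant speed and locally length-minimising) are in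
`Vale/Agent/H58/Sph/Defs.lean`; the proof is `Vale.Agent.H58.Sph.pole_family_fd`.
-/

namespace Vale.Agent.Results.P216.C_PoleFamilySn

open Vale.Agent.H58.Sph

/-- Let `g` be a smooth Riemannian metric on the unit sphere of `E` (dimension of `E` at least
three), written `g_x (v, v) = Q x v` for `v` orthogonal to `x`.  Assume that for some `lam > 0` and
some point `N` of the sphere (the pole), `g_x (v, v) ≥ lam * ‖v‖ ^ 2` for all tangent `v` (the
metric dominates `lam` times the round metric), with equality in the meridian direction
`N - inner ℝ N x • x` at every point `x`.  Then there are infinitely many closed geodesics `c k`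
(great circles through `N`), each `2π`-periodic and injective on a period (so simple and prime),
with pairwise different images. -/
theorem result {E : Type*} [NormedAddCommGroup E] [InnerProductSpace ℝ E]
    [FiniteDimensional ℝ E] (hdim : 3 ≤ Module.finrank ℝ E)
    (Q : E → QuadraticForm ℝ E)
    (hsm : ContDiff ℝ (⊤ : ℕ∞) (fun p : E × E => Q p.1 p.2))
    (N : E) (hN : ‖N‖ = 1) (lam : ℝ) (hlam : 0 < lam)
    (hmin : ∀ x v : E, ‖x‖ = 1 → inner ℝ x v = 0 → lam * ‖v‖ ^ 2 ≤ Q x v)
    (heq : ∀ x : E, ‖x‖ = 1 →
      Q x (N - inner ℝ N x • x) = lam * ‖N - inner ℝ N x • x‖ ^ 2) :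
    ∃ c : ℕ → ℝ → E, (∀ k, IsGeodS Q (c k)) ∧
      (∀ k, Function.Periodic (c k) (2 * Real.pi)) ∧
      (∀ k, Set.InjOn (c k) (Set.Ico 0 (2 * Real.pi))) ∧
      ∀ k l, k ≠ l → Set.range (c k) ≠ Set.range (c l) :=
  pole_family_fd hdim Q hsm N hN lam hlam hmin heq

end Vale.Agent.Results.P216.C_PoleFamilySn
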