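import Mathlib
import Vale.Agent.H58.Sph.Both

/-!
# P216: infinitely many simple closed geodesics for two families of metrics on spheres

Hand-in.  `E` is a finite-dimensional real inner product space of dimension `n + 1 ≥ 3`; its unit
sphere is the round `n`-sphere, `n ≥ 2`, and the tangent space at `x` is the set of `v` orthogonal
to `x`.  A smooth Riemannian metric on the sphere is given by a smooth field `Q` of quadratic forms
through `g_x (v, v) = Q x v` for tangent `v`.  The statement-level definitions `lenS` (length of a
curve) and `IsGeodS` (constant speed and locally length-minimising) are in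
`Vale/Agent/H58/Sph/Defs.lean`; the proof is `Vale.Agent.H58.Sph.pole_or_hopf`.
-/

namespace Vale.Agent.Results.P216.D_PoleOrHopfFamily

open Vale.Agent.H58.Sph

/-- Let `g` be a smooth Riemannian metric on the unit sphere of `E` (dimension of `E` at least
three), written `g_x (v, v) = Q x v` for `v` orthogonal to `x`, with `g_x (v, v) ≥ lam * ‖v‖ ^ 2`
for all tangent `v` (the metric dominates `lam > 0` times the round metric).  Assume equality
either in the meridian direction `N - inner ℝ N x • x` of a pole `N` at every point `x`, or along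
the Hopf field `x ↦ J x` of a linear complex structure `J` that preserves the norm (then the
dimension of `E` is even and the sphere is an odd-dimensional sphere).  Then there are infinitely
many closed geodesics `c k`, each `2π`-periodic and injective on a period (so simple and prime),
with pairwise different images. -/
theorem result {E : Type*} [NormedAddCommGroup E] [InnerProductSpace ℝ E]
    [FiniteDimensional ℝ E] (hdim : 3 ≤ Module.finrank ℝ E)
    (Q : E → QuadraticForm ℝ E)
    (hsm : ContDiff ℝ (⊤ : ℕ∞) (fun p : E × E => Q p.1 p.2)) (lam : ℝ) (hlam : 0 < lam)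
    (hmin : ∀ x v : E, ‖x‖ = 1 → inner ℝ x v = 0 → lam * ‖v‖ ^ 2 ≤ Q x v)
    (hfield : (∃ N : E, ‖N‖ = 1 ∧ ∀ x : E, ‖x‖ = 1 →
        Q x (N - inner ℝ N x • x) = lam * ‖N - inner ℝ N x • x‖ ^ 2) ∨
      (∃ J : E →ₗ[ℝ] E, (∀ x : E, ‖J x‖ = ‖x‖) ∧ (∀ x : E, J (J x) = -x) ∧
        ∀ x : E, ‖x‖ = 1 → Q x (J x) = lam)) :
    ∃ c : ℕ → ℝ → E, (∀ k, IsGeodS Q (c k)) ∧
      (∀ k, Function.Periodic (c k) (2 * Real.pi)) ∧
      (∀ k, Set.InjOn (c k) (Set.Ico 0 (2 * Real.pi))) ∧
      ∀ k l, k ≠ l → Set.range (c k) ≠ Set.range (c l) :=
  pole_or_hopf hdim Q hsm lam hlam hmin hfield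

end Vale.Agent.Results.P216.D_PoleOrHopfFamily
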